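import Vale.Agent.P240.R2.H121.Spec

/-!
LEMMA T (P240, crux 11): L1 (`inj`), L2 (`lift_of`).
-/

namespace Vale.Agent.P240.LT

open Subgroup

universe u v w

section
variable {A : Type u} [Group A] [Finite A] {p : ℕ}

lemma inf_card (hp : p.Prime) (hn : ∀ X : Subgroup A, X.Normal) {X H : Subgroup A} (hH : Hyp p H)
    (hX : ¬ X ≤ H) : Nat.card X = p * Nat.card (X ⊓ H : Subgroup A) := by
  have hHn := hn H
  have h1 : H.index = p := by
    have h2 := H.card_mul_index
    have h3 : 0 < Nat.card H := Nat.card_pos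
    rw [hH, mul_comm] at h2
    exact Nat.eq_of_mul_eq_mul_right h3 h2
  have h2 : H.relIndex X ∣ p := h1 ▸ H.relIndex_dvd_index_of_normal X
  have h3 : H.relIndex X ≠ 1 := fun h => hX (relIndex_eq_one.1 h)
  have h4 : H.relIndex X = p := (Nat.dvd_prime hp |>.1 h2).resolve_left h3
  have h5 := relIndex_mul_relIndex (⊥ : Subgroup A) (X ⊓ H) X bot_le inf_le_left
  rw [relIndex_bot_left, relIndex_bot_left, inf_relIndex_left, h4] at h5
  rw [← h5, mul_comm]

lemma eq_of_le_card {X Y : Subgroup A} (h : X ≤ Y) (hc : Nat.card X = Nat.card Y) : X = Y :=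
  Subgroup.eq_of_le_of_card_ge h hc.ge

lemma inf_eq (hp : p.Prime) (hn : ∀ X : Subgroup A, X.Normal) {Z H Y : Subgroup A} (hH : Hyp p H)
    (hZ : ¬ Z ≤ H) (hYH : Y ≤ H) (hZY : Z ∈ par p Y) : Y = Z ⊓ H := by
  rw [mem_par] at hZY
  refine eq_of_le_card (le_inf hZY.1 hYH) ?_
  have h1 := inf_card hp hn hH hZ
  rw [hZY.2] at h1
  exact Nat.eq_of_mul_eq_mul_left hp.pos h1

lemma par_inf (hp : p.Prime) (hn : ∀ X : Subgroup A, X.Normal) {B X Z H : Subgroup A}
    (hH : Hyp p H) (hBH : B ≤ H) (hX : X ∈ par p B) (hZ : Z ∈ par p X) (hZH : ¬ Z ≤ H) :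
    Z ⊓ H ∈ par p B ∧ Z ∈ par p (Z ⊓ H) := by
  rw [mem_par] at hX hZ
  have h1 := inf_card hp hn hH hZH
  have h2 : Nat.card (Z ⊓ H : Subgroup A) = p * Nat.card B := by
    rw [hZ.2] at h1
    rw [← Nat.eq_of_mul_eq_mul_left hp.pos h1, hX.2]
  refine ⟨mem_par.2 ⟨le_inf (hX.1.trans hZ.1) hBH, h2⟩, mem_par.2 ⟨inf_le_left, h1⟩⟩

lemma par_inf2 (hp : p.Prime) (hn : ∀ X : Subgroup A, X.Normal) {B X Z U W H : Subgroup A}
    (hH : Hyp p H) (hBH : B ≤ H) (hX : X ∈ par p B) (hZ : Z ∈ par p X) (hU : U ∈ par p Z)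
    (hZH : ¬ Z ≤ H) (hUW : U ∈ par p W) (hWH : W ≤ H) :
    Z ⊓ H ∈ par p B ∧ Z ∈ par p (Z ⊓ H) ∧ W ∈ par p (Z ⊓ H) := by
  obtain ⟨h1, h2⟩ := par_inf hp hn hH hBH hX hZ hZH
  have hUH : ¬ U ≤ H := fun h => hZH ((mem_par.1 hU).1.trans h)
  have hW : W = U ⊓ H := inf_eq hp hn hH hUH hWH hUW
  refine ⟨h1, h2, mem_par.2 ⟨?_, ?_⟩⟩
  · rw [hW]
    exact inf_le_inf_right H (mem_par.1 hU).1
  · have h3 : p * Nat.card W = p * Nat.card Z := by
      rw [← (mem_par.1 hUW).2, (mem_par.1 hU).2]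
    rw [Nat.eq_of_mul_eq_mul_left hp.pos h3, (mem_par.1 h2).2]

end

section
variable {A : Type u} [Group A] [Finite A] {Ω : Type v} [Fintype Ω] {𝕜 : Type w} [Field 𝕜]
  {p : ℕ} {r : Subgroup A → Setoid Ω}

lemma T_not_par {k : ℕ} {B X : Subgroup A} {z : List (Subgroup A) → Ω → 𝕜}
    (hz : z ∈ T 𝕜 p r k B) (hX : X ∉ par p B) (l : List (Subgroup A)) : z (X :: l) = 0 := by
  cases k with
  | zero => exact mem_T_zero.1 hz _ (List.cons_ne_nil _ _)
  | succ k => exact (mem_T_succ.1 hz).2.1 X hX l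

/-- (L1) -/
theorem inj (hp : p.Prime) (hn : ∀ X : Subgroup A, X.Normal) {H : Subgroup A} (hH : Hyp p H) :
    ∀ (k : ℕ) (B : Subgroup A) (z : List (Subgroup A) → Ω → 𝕜), B ≤ H →
      Nat.card A = p ^ (k + 1) * Nat.card B → z ∈ T 𝕜 p r (k + 1) B →
      (∀ X ∈ par p B, ¬ X ≤ H → ∀ l, z (X :: l) = 0) → z = 0 := by
  intro k
  induction k with
  | zero =>
    intro B z hBH hk hz h0
    funext l
    rcases l with _ | ⟨X, l⟩
    · exact (mem_T_succ.1 hz).1
    by_cases hX : X ∈ par p B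
    · refine h0 X hX ?_ l
      intro hXH
      have h1 := (mem_par.1 hX).2
      have h2 : Nat.card X ≤ Nat.card H := Subgroup.card_le_of_le hXH
      rw [h1, ← pow_one p, ← zero_add 1, ← hk, hH] at h2
      have h3 : 0 < Nat.card H := Nat.card_pos
      have := hp.two_le
      nlinarith
    · exact T_not_par hz hX l
  | succ k ih =>
    intro B z hBH hk hz h0
    funext l
    rcases l with _ | ⟨Y, l⟩
    · exact (mem_T_succ.1 hz).1
    by_cases hY : Y ∈ par p B
    swap
    · exact T_not_par hz hY l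
    by_cases hYH : Y ≤ H
    swap
    · exact h0 Y hY hYH l
    have hzY := (mem_T_succ.1 hz).2.2.1 Y hY
    have hkY : Nat.card A = p ^ (k + 1) * Nat.card Y := by
      rw [(mem_par.1 hY).2, hk, pow_succ p (k + 1), mul_assoc]
    have := ih Y (fun l => z (Y :: l)) hYH hkY hzY ?_
    · exact congrFun this l
    intro Z hZ hZH l
    have h1 := (mem_T_succ.1 hz).2.2.2.1 Z l
    rw [Finset.sum_eq_single Y] at h1
    · exact h1
    · intro X hX hXY
      by_cases hXH : X ≤ H
      · refine T_not_par ((mem_T_succ.1 hz).2.2.1 X hX) ?_ l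
        intro hZX
        apply hXY
        rw [inf_eq hp hn hH hZH hXH hZX, inf_eq hp hn hH hZH hYH hZ]
      · exact h0 X hX hXH _
    · intro h
      exact absurd hY h

open Classical in
/-- the identity `(*)` -/
theorem star (hp : p.Prime) (hn : ∀ X : Subgroup A, X.Normal) {H : Subgroup A} (hH : Hyp p H)
    {k : ℕ} {B W U : Subgroup A} {d : List (Subgroup A) → Ω → 𝕜} (hBH : B ≤ H)
    (hd : d ∈ D 𝕜 p r H (k + 1) B) (hWH : W ≤ H) (hUW : U ∈ par p W) (l : List (Subgroup A)) :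
    ∑ Y ∈ (par p B).filter (fun Y => Y ≤ H ∧ W ∈ par p Y),
      ∑ Z ∈ (par p Y).filter (fun Z => ¬ Z ≤ H), ∑ X ∈ par p B, d (X :: Z :: U :: l) = 0 := by
  rw [← Finset.sum_biUnion, Finset.sum_comm]
  · refine Finset.sum_eq_zero fun X hX => ?_
    by_cases hXH : X ≤ H
    · exact Finset.sum_eq_zero fun Z _ => hd.2.1 X (Or.inr hXH) _
    have hdX := hd.2.2 X hX hXH
    rw [← (mem_T_succ.1 hdX).2.2.2.1 U l]
    refine Finset.sum_congr_of_eq_on_inter ?_ ?_ ?_
    · intro Z _ hZ
      exact (mem_T_succ.1 hdX).2.1 Z hZ _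
    · intro Z hZ hZ'
      by_cases hUZ : U ∈ par p Z
      · exfalso
        apply hZ'
        have hZH : ¬ Z ≤ H := fun h => hXH ((mem_par.1 hZ).1.trans h)
        obtain ⟨h1, h2, h3⟩ := par_inf2 hp hn hH hBH hX hZ hUZ hZH hUW hWH
        rw [Finset.mem_biUnion]
        exact ⟨Z ⊓ H, Finset.mem_filter.2 ⟨h1, inf_le_right, h3⟩, Finset.mem_filter.2 ⟨h2, hZH⟩⟩
      · exact T_not_par ((mem_T_succ.1 hdX).2.2.1 Z hZ) hUZ l
    · intro Z _ _
      rfl
  · intro Y hY Y' hY' hne
    rw [Function.onFun, Finset.disjoint_left]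
    intro Z hZ hZ'
    simp only [Finset.coe_filter, Set.mem_ofPred_eq, Finset.mem_filter] at hY hY' hZ hZ'
    apply hne
    rw [inf_eq hp hn hH hZ.2 hY.2.1 hZ.1, inf_eq hp hn hH hZ.2 hY'.2.1 hZ'.1]

open Classical in
/-- the identity `(**)` -/
theorem dbl (hp : p.Prime) (hn : ∀ X : Subgroup A, X.Normal) {H : Subgroup A} (hH : Hyp p H)
    {k : ℕ} {B Y W U : Subgroup A} {d z : List (Subgroup A) → Ω → 𝕜}
    (hz : z ∈ T 𝕜 p r (k + 1) Y)
    (hext : ∀ Z ∈ par p Y, ¬ Z ≤ H → ∀ l, z (Z :: l) = - ∑ X ∈ par p B, d (X :: Z :: l))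
    (hW : W ∈ par p Y) (hWH : W ≤ H) (hUW : U ∈ par p W) (hUH : ¬ U ≤ H)
    (l : List (Subgroup A)) :
    z (W :: U :: l) = ∑ Z ∈ (par p Y).filter (fun Z => ¬ Z ≤ H),
      ∑ X ∈ par p B, d (X :: Z :: U :: l) := by
  have h1 := (mem_T_succ.1 hz).2.2.2.1 U l
  rw [← Finset.sum_filter_add_sum_filter_not _ (fun Z => Z ≤ H)] at h1
  have h2 : ∑ Z ∈ (par p Y).filter (fun Z => Z ≤ H), z (Z :: U :: l) = z (W :: U :: l) := by
    rw [Finset.sum_eq_single W]
    · intro Z hZ hZW
      rw [Finset.mem_filter] at hZ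
      refine T_not_par ((mem_T_succ.1 hz).2.2.1 Z hZ.1) ?_ l
      intro hUZ
      apply hZW
      rw [inf_eq hp hn hH hUH hZ.2 hUZ, inf_eq hp hn hH hUH hWH hUW]
    · intro h
      exact absurd (Finset.mem_filter.2 ⟨hW, hWH⟩) h
  have h3 : ∑ Z ∈ (par p Y).filter (fun Z => ¬ Z ≤ H), z (Z :: U :: l) =
      - ∑ Z ∈ (par p Y).filter (fun Z => ¬ Z ≤ H), ∑ X ∈ par p B, d (X :: Z :: U :: l) := by
    rw [← Finset.sum_neg_distrib]
    refine Finset.sum_congr rfl fun Z hZ => ?_
    rw [Finset.mem_filter] at hZ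
    exact hext Z hZ.1 hZ.2 _
  rw [h2, h3] at h1
  exact add_neg_eq_zero.1 h1

open Classical in
/-- `z(X :: l)` from the pieces -/
noncomputable def glue (p : ℕ) (H B : Subgroup A) (d : List (Subgroup A) → Ω → 𝕜)
    (ζ : Subgroup A → List (Subgroup A) → Ω → 𝕜) : List (Subgroup A) → Ω → 𝕜
  | [] => 0
  | X :: l => if X ∈ par p B then (if X ≤ H then ζ X l else d (X :: l)) else 0

open Classical in
/-- assembling -/
theorem glue_mem (hp : p.Prime) (hn : ∀ X : Subgroup A, X.Normal) {H : Subgroup A}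
    (hH : Hyp p H) {k : ℕ} {B : Subgroup A} {d : List (Subgroup A) → Ω → 𝕜} (hBH : B ≤ H)
    (hk : Nat.card A = p ^ (k + 2) * Nat.card B)
    (hd : d ∈ D 𝕜 p r H (k + 1) B) {ζ : Subgroup A → List (Subgroup A) → Ω → 𝕜}
    (hζ : ∀ Y ∈ par p B, Y ≤ H → ζ Y ∈ T 𝕜 p r (k + 1) Y ∧
      ∀ Z ∈ par p Y, ¬ Z ≤ H → ∀ l, ζ Y (Z :: l) = - ∑ X ∈ par p B, d (X :: Z :: l)) :
    glue p H B d ζ ∈ T 𝕜 p r (k + 2) B := by
  rw [mem_T_succ]
  refine ⟨rfl, fun X hX l => ?_, fun X hX => ?_, fun Z l => ?_, fun h => absurd h (by omega)⟩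
  · simp [glue, hX]
  · by_cases hXH : X ≤ H
    · have : (fun l => glue p H B d ζ (X :: l)) = ζ X := by
        funext l
        simp [glue, hX, hXH]
      rw [this]
      exact (hζ X hX hXH).1
    · have : (fun l => glue p H B d ζ (X :: l)) = fun l => d (X :: l) := by
        funext l
        simp [glue, hX, hXH]
      rw [this]
      exact hd.2.2 X hX hXH
  · -- relations
    have hsplit : ∑ X ∈ par p B, glue p H B d ζ (X :: Z :: l) =
        ∑ X ∈ (par p B).filter (fun X => X ≤ H), ζ X (Z :: l) +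
          ∑ X ∈ par p B, d (X :: Z :: l) := by
      rw [← Finset.sum_filter_add_sum_filter_not _ (fun X => X ≤ H)]
      congr 1
      · refine Finset.sum_congr rfl fun X hX => ?_
        rw [Finset.mem_filter] at hX
        simp [glue, hX.1, hX.2]
      · rw [← Finset.sum_filter_add_sum_filter_not (par p B) (fun X => X ≤ H)
          (fun X => d (X :: Z :: l))]
        have h0 : ∑ X ∈ (par p B).filter (fun X => X ≤ H), d (X :: Z :: l) = 0 :=
          Finset.sum_eq_zero fun X hX => hd.2.1 X (Or.inr (Finset.mem_filter.1 hX).2) _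
        rw [h0, zero_add]
        refine Finset.sum_congr rfl fun X hX => ?_
        rw [Finset.mem_filter] at hX
        simp [glue, hX.1, hX.2]
    rw [hsplit]
    by_cases hZH : Z ≤ H
    · -- Z ≤ H
      have hd0 : ∑ X ∈ par p B, d (X :: Z :: l) = 0 := by
        refine Finset.sum_eq_zero fun X hX => ?_
        by_cases hXH : X ≤ H
        · exact hd.2.1 X (Or.inr hXH) _
        · refine T_not_par (hd.2.2 X hX hXH) ?_ l
          intro h
          exact hXH ((mem_par.1 h).1.trans hZH)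
      rw [hd0, add_zero]
      by_cases hex : ∃ Y ∈ par p B, Y ≤ H ∧ Z ∈ par p Y
      swap
      · refine Finset.sum_eq_zero fun X hX => ?_
        rw [Finset.mem_filter] at hX
        refine T_not_par (hζ X hX.1 hX.2).1 ?_ l
        intro h
        exact hex ⟨X, hX.1, hX.2, h⟩
      obtain ⟨Y, hY, hYH, hZY⟩ := hex
      rcases k with _ | k
      · exfalso
        have h1 : Nat.card Z ≤ Nat.card H := Subgroup.card_le_of_le hZH
        rw [(mem_par.1 hZY).2, (mem_par.1 hY).2] at h1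
        have h2 : Nat.card A = p * (p * Nat.card B) := by rw [hk]; ring
        rw [← h2, hH] at h1
        have h3 : 0 < Nat.card H := Nat.card_pos
        have := hp.two_le
        nlinarith
      · have hkZ : Nat.card A = p ^ (k + 1) * Nat.card Z := by
          rw [(mem_par.1 hZY).2, (mem_par.1 hY).2, hk]; ring
        have hs : (fun l => ∑ X ∈ (par p B).filter (fun X => X ≤ H), ζ X (Z :: l)) = 0 := by
          refine inj (r := r) hp hn hH k Z _ hZH hkZ ?_ ?_
          · have : (fun l => ∑ X ∈ (par p B).filter (fun X => X ≤ H), ζ X (Z :: l)) =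
                ∑ X ∈ (par p B).filter (fun X => X ≤ H), fun l => ζ X (Z :: l) := by
              funext l
              rw [Finset.sum_apply]
            rw [this]
            refine Submodule.sum_mem _ fun X hX => ?_
            rw [Finset.mem_filter] at hX
            have hX' := (hζ X hX.1 hX.2).1
            by_cases hZX : Z ∈ par p X
            · exact (mem_T_succ.1 hX').2.2.1 Z hZX
            · have : (fun l => ζ X (Z :: l)) = 0 := by
                funext l
                exact T_not_par hX' hZX l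
              rw [this]
              exact Submodule.zero_mem _
          · intro U hU hUH l
            show ∑ X ∈ (par p B).filter (fun X => X ≤ H), ζ X (Z :: U :: l) = 0
            rw [← star (W := Z) hp hn hH hBH hd hZH hU l]
            refine Finset.sum_congr_of_eq_on_inter ?_ ?_ ?_
            · intro X hX hX'
              rw [Finset.mem_filter] at hX hX'
              refine T_not_par (hζ X hX.1 hX.2).1 ?_ _
              intro h
              exact hX' ⟨hX.1, hX.2, h⟩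
            · intro X hX hX'
              exfalso
              rw [Finset.mem_filter] at hX hX'
              exact hX' ⟨hX.1, hX.2.1⟩
            · intro X hX hX'
              rw [Finset.mem_filter] at hX hX'
              exact dbl hp hn hH (hζ X hX.1 hX.2).1 (hζ X hX.1 hX.2).2 hX'.2.2 hZH hU hUH l
        exact congrFun hs l
    · -- ¬ Z ≤ H
      by_cases hex : ∃ Y ∈ par p B, Y ≤ H ∧ Z ∈ par p Y
      · obtain ⟨Y, hY, hYH, hZY⟩ := hex
        rw [Finset.sum_eq_single Y]
        · rw [(hζ Y hY hYH).2 Z hZY hZH l, neg_add_cancel]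
        · intro X hX hXY
          rw [Finset.mem_filter] at hX
          refine T_not_par (hζ X hX.1 hX.2).1 ?_ l
          intro h
          apply hXY
          rw [inf_eq hp hn hH hZH hX.2 h, inf_eq hp hn hH hZH hYH hZY]
        · intro h
          exact absurd (Finset.mem_filter.2 ⟨hY, hYH⟩) h
      · have h1 : ∑ X ∈ (par p B).filter (fun X => X ≤ H), ζ X (Z :: l) = 0 := by
          refine Finset.sum_eq_zero fun X hX => ?_
          rw [Finset.mem_filter] at hX
          refine T_not_par (hζ X hX.1 hX.2).1 ?_ l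
          intro h
          exact hex ⟨X, hX.1, hX.2, h⟩
        rw [h1, zero_add]
        refine Finset.sum_eq_zero fun X hX => ?_
        by_cases hXH : X ≤ H
        · exact hd.2.1 X (Or.inr hXH) _
        · refine T_not_par (hd.2.2 X hX hXH) ?_ l
          intro h
          obtain ⟨h1, h2⟩ := par_inf hp hn hH hBH hX h hZH
          exact hex ⟨Z ⊓ H, h1, inf_le_right, h2⟩

open Classical in
/-- (L2) -/
theorem lift_of (hp : p.Prime) (hn : ∀ X : Subgroup A, X.Normal) {H H1 : Subgroup A}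
    (hH : Hyp p H) (hH1 : Hyp p H1) (hne : H ≠ H1) :
    ∀ (k : ℕ) (B : Subgroup A) (d : List (Subgroup A) → Ω → 𝕜), B ≤ H → B ≤ H1 →
      Nat.card A = p ^ (k + 2) * Nat.card B → d ∈ D 𝕜 p r H (k + 1) B →
      (∀ Y ∈ par p B, Y ≤ H → ¬ Y ≤ H1 → ∃ z ∈ T 𝕜 p r (k + 1) Y,
        ∀ Z ∈ par p Y, ¬ Z ≤ H → ∀ l, z (Z :: l) = - ∑ X ∈ par p B, d (X :: Z :: l)) →
      ∃ z ∈ T 𝕜 p r (k + 2) B, ∀ X ∈ par p B, ¬ X ≤ H → ∀ l, z (X :: l) = d (X :: l) := by
  intro k
  induction k with
  | zero =>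
    intro B d hBH hBH1 hk hd hl
    have hall : ∀ Y, ∃ z : List (Subgroup A) → Ω → 𝕜, Y ∈ par p B → Y ≤ H →
        z ∈ T 𝕜 p r (0 + 1) Y ∧
          ∀ Z ∈ par p Y, ¬ Z ≤ H → ∀ l, z (Z :: l) = - ∑ X ∈ par p B, d (X :: Z :: l) := by
      intro Y
      by_cases hY : Y ∈ par p B
      swap
      · exact ⟨0, fun h => absurd h hY⟩
      by_cases hYH : Y ≤ H
      swap
      · exact ⟨0, fun _ h => absurd h hYH⟩
      have hcY : Nat.card A = p * Nat.card Y := by
        rw [(mem_par.1 hY).2, hk]; ring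
      have hYe : Y = H := by
        refine eq_of_le_card hYH ?_
        rw [hH] at hcY
        exact (Nat.eq_of_mul_eq_mul_left hp.pos hcY).symm
      have hYH1 : ¬ Y ≤ H1 := by
        intro h
        have : Y = H1 := by
          refine eq_of_le_card h ?_
          rw [hH1] at hcY
          exact (Nat.eq_of_mul_eq_mul_left hp.pos hcY).symm
        exact hne (hYe.symm.trans this)
      obtain ⟨z, hz, hz'⟩ := hl Y hY hYH hYH1
      exact ⟨z, fun _ _ => ⟨hz, hz'⟩⟩
    choose ζ hζ using hall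
    refine ⟨glue p H B d ζ, glue_mem hp hn hH hBH hk hd (fun Y hY hYH => hζ Y hY hYH), ?_⟩
    intro X hX hXH l
    simp [glue, hX, hXH]
  | succ k ih =>
    intro B d hBH hBH1 hk hd hl
    have hall : ∀ Y, ∃ z : List (Subgroup A) → Ω → 𝕜, Y ∈ par p B → Y ≤ H →
        z ∈ T 𝕜 p r (k + 1 + 1) Y ∧
          ∀ Z ∈ par p Y, ¬ Z ≤ H → ∀ l, z (Z :: l) = - ∑ X ∈ par p B, d (X :: Z :: l) := by
      intro Y
      by_cases hY : Y ∈ par p B
      swap
      · exact ⟨0, fun h => absurd h hY⟩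
      by_cases hYH : Y ≤ H
      swap
      · exact ⟨0, fun _ h => absurd h hYH⟩
      by_cases hYH1 : Y ≤ H1
      swap
      · obtain ⟨z, hz, hz'⟩ := hl Y hY hYH hYH1
        exact ⟨z, fun _ _ => ⟨hz, hz'⟩⟩
      -- use the induction hypothesis at `Y`
      have hkY : Nat.card A = p ^ (k + 2) * Nat.card Y := by
        rw [(mem_par.1 hY).2, hk]; ring
      let d' : List (Subgroup A) → Ω → 𝕜 := fun m => match m with
        | [] => 0
        | Z :: l => if Z ∈ par p Y ∧ ¬ Z ≤ H then - ∑ X ∈ par p B, d (X :: Z :: l) else 0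
      have hd'v : ∀ Z l, Z ∈ par p Y → ¬ Z ≤ H → d' (Z :: l) = - ∑ X ∈ par p B, d (X :: Z :: l) := by
        intro Z l h1 h2
        exact if_pos ⟨h1, h2⟩
      have hd' : d' ∈ D 𝕜 p r H (k + 1) Y := by
        refine ⟨rfl, ?_, ?_⟩
        · intro X hX l
          refine if_neg ?_
          rintro ⟨h1, h2⟩
          rcases hX with h | h
          · exact h h1
          · exact h2 h
        · intro Z hZ hZH
          have : (fun l => d' (Z :: l)) = - ∑ X ∈ par p B, fun l => d (X :: Z :: l) := by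
            funext l
            rw [hd'v Z l hZ hZH]
            simp [Finset.sum_apply]
          rw [this]
          refine Submodule.neg_mem _ (Submodule.sum_mem _ fun X hX => ?_)
          by_cases hXH : X ≤ H
          · have : (fun l => d (X :: Z :: l)) = 0 := by
              funext l
              exact hd.2.1 X (Or.inr hXH) _
            rw [this]
            exact Submodule.zero_mem _
          · have hdX := hd.2.2 X hX hXH
            by_cases hZX : Z ∈ par p X
            · exact (mem_T_succ.1 hdX).2.2.1 Z hZX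
            · have : (fun l => d (X :: Z :: l)) = 0 := by
                funext l
                exact T_not_par hdX hZX l
              rw [this]
              exact Submodule.zero_mem _
      have hcond : ∀ W ∈ par p Y, W ≤ H → ¬ W ≤ H1 → ∃ z ∈ T 𝕜 p r (k + 1) W,
          ∀ U ∈ par p W, ¬ U ≤ H → ∀ l, z (U :: l) = - ∑ Z ∈ par p Y, d' (Z :: U :: l) := by
        intro W hW hWH hWH1
        -- the other members of the interval
        have hoth : ∀ Y', ∃ z : List (Subgroup A) → Ω → 𝕜, Y' ∈ par p B → Y' ≤ H →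
            W ∈ par p Y' → Y' ≠ Y → z ∈ T 𝕜 p r (k + 1 + 1) Y' ∧
              ∀ Z ∈ par p Y', ¬ Z ≤ H → ∀ l, z (Z :: l) = - ∑ X ∈ par p B, d (X :: Z :: l) := by
          intro Y'
          by_cases h : Y' ∈ par p B ∧ Y' ≤ H ∧ W ∈ par p Y' ∧ Y' ≠ Y
          · obtain ⟨h1, h2, h3, h4⟩ := h
            have h5 : ¬ Y' ≤ H1 := by
              intro h5
              apply h4
              rw [inf_eq hp hn hH1 hWH1 h5 h3, inf_eq hp hn hH1 hWH1 hYH1 hW]
            obtain ⟨z, hz, hz'⟩ := hl Y' h1 h2 h5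
            exact ⟨z, fun _ _ _ _ => ⟨hz, hz'⟩⟩
          · exact ⟨0, fun h1 h2 h3 h4 => absurd ⟨h1, h2, h3, h4⟩ h⟩
        choose ζ hζ using hoth
        set S : Finset (Subgroup A) := (par p B).filter (fun Y => Y ≤ H ∧ W ∈ par p Y) with hS
        have hYS : Y ∈ S := Finset.mem_filter.2 ⟨hY, hYH, hW⟩
        have hSe : ∀ Y' ∈ S.erase Y, ζ Y' ∈ T 𝕜 p r (k + 1 + 1) Y' ∧ W ∈ par p Y' ∧
              ∀ Z ∈ par p Y', ¬ Z ≤ H → ∀ l, ζ Y' (Z :: l) = - ∑ X ∈ par p B, d (X :: Z :: l) := by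
          intro Y' hY'
          rw [Finset.mem_erase, hS, Finset.mem_filter] at hY'
          obtain ⟨h1, h2⟩ := hζ Y' hY'.2.1 hY'.2.2.1 hY'.2.2.2 hY'.1
          exact ⟨h1, hY'.2.2.2, h2⟩
        refine ⟨- ∑ Y' ∈ S.erase Y, fun l => ζ Y' (W :: l), ?_, ?_⟩
        · refine Submodule.neg_mem _ (Submodule.sum_mem _ fun Y' hY' => ?_)
          obtain ⟨h1, h2, -⟩ := hSe Y' hY'
          exact (mem_T_succ.1 h1).2.2.1 W h2
        · intro U hU hUH l
          have h1 : (- ∑ Y' ∈ S.erase Y, fun l => ζ Y' (W :: l)) (U :: l) =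
              - ∑ Y' ∈ S.erase Y, ζ Y' (W :: U :: l) := by
            simp [Finset.sum_apply]
          rw [h1]
          have h2 : ∑ Y' ∈ S.erase Y, ζ Y' (W :: U :: l) = ∑ Y' ∈ S.erase Y,
              ∑ Z ∈ (par p Y').filter (fun Z => ¬ Z ≤ H), ∑ X ∈ par p B, d (X :: Z :: U :: l) := by
            refine Finset.sum_congr rfl fun Y' hY' => ?_
            obtain ⟨h1, h2, h3⟩ := hSe Y' hY'
            exact dbl hp hn hH h1 h3 h2 hWH hU hUH l
          have h3 := star (W := W) hp hn hH hBH hd hWH hU l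
          rw [← hS, ← Finset.add_sum_erase S _ hYS] at h3
          have h4 : ∑ Z ∈ par p Y, d' (Z :: U :: l) =
              - ∑ Z ∈ (par p Y).filter (fun Z => ¬ Z ≤ H), ∑ X ∈ par p B, d (X :: Z :: U :: l) := by
            rw [← Finset.sum_neg_distrib, Finset.sum_filter]
            refine Finset.sum_congr rfl fun Z hZ => ?_
            by_cases hZH : Z ≤ H
            · rw [if_neg (fun h => h hZH)]
              exact if_neg (fun h => h.2 hZH)
            · rw [if_pos hZH]
              exact hd'v Z _ hZ hZH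
          rw [h2, h4, neg_inj]
          rw [add_comm] at h3
          exact eq_neg_of_add_eq_zero_left h3
      obtain ⟨z, hz, hz'⟩ := ih Y d' hYH hYH1 hkY hd' hcond
      refine ⟨z, fun _ _ => ⟨hz, fun Z hZ hZH l => ?_⟩⟩
      rw [hz' Z hZ hZH l, hd'v Z l hZ hZH]
    choose ζ hζ using hall
    refine ⟨glue p H B d ζ, glue_mem hp hn hH hBH hk hd (fun Y hY hYH => hζ Y hY hYH), ?_⟩
    intro X hX hXH l
    simp [glue, hX, hXH]

end

end Vale.Agent.P240.LT
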