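import Vale.Agent.P240.R2.H121.Core

/-!
LEMMA T (P240, crux 11): the inequality (2).
-/

namespace Vale.Agent.P240.LT

open Subgroup Module

universe u v w

section
variable {K : Type*} [Field K] {V : Type*} [AddCommGroup V] [Module K V] [FiniteDimensional K V]
  {ι : Type*} [Fintype ι]

lemma dim_bound (W : ι → Type*) [∀ i, AddCommGroup (W i)] [∀ i, Module K (W i)]
    [∀ i, FiniteDimensional K (W i)] (R : ∀ i, Submodule K (W i)) (g : ∀ i, V →ₗ[K] W i)
    (P : Submodule K V) (h : ∀ v, (∀ i, g i v ∈ R i) → v ∈ P) :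
    finrank K V ≤ finrank K P + ∑ i, (finrank K (W i) - finrank K (R i)) := by
  let Ψ : V →ₗ[K] (∀ i, W i ⧸ R i) := LinearMap.pi fun i => (R i).mkQ ∘ₗ g i
  have hker : LinearMap.ker Ψ ≤ P := by
    intro v hv
    apply h
    intro i
    have h1 : (R i).mkQ (g i v) = 0 := congrFun (LinearMap.mem_ker.1 hv) i
    rwa [Submodule.mkQ_apply, Submodule.Quotient.mk_eq_zero] at h1
  have h1 := LinearMap.finrank_range_add_finrank_ker Ψ
  have h2 := Submodule.finrank_mono hker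
  have h3 : finrank K (LinearMap.range Ψ) ≤ ∑ i, (finrank K (W i) - finrank K (R i)) := by
    refine (Submodule.finrank_le _).trans ?_
    rw [Module.finrank_pi_fintype]
    refine Finset.sum_le_sum fun i _ => ?_
    have h4 := Submodule.finrank_quotient_add_finrank (R i)
    omega
  omega

end

section
variable {A : Type u} [Group A] [Finite A] {Ω : Type v} [Fintype Ω] {𝕜 : Type w} [Field 𝕜]
  {p : ℕ} {r : Subgroup A → Setoid Ω}

/-- evaluation at the lists starting with `X` -/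
def shiftL (𝕜 : Type w) [Field 𝕜] (Ω : Type v) (X : Subgroup A) :
    (List (Subgroup A) → Ω → 𝕜) →ₗ[𝕜] (List (Subgroup A) → Ω → 𝕜) where
  toFun z l := z (X :: l)
  map_add' _ _ := rfl
  map_smul' _ _ := rfl

instance finT (k : ℕ) : ∀ B : Subgroup A, FiniteDimensional 𝕜 (T 𝕜 p r k B) := by
  induction k with
  | zero =>
    intro B
    let f : T 𝕜 p r 0 B →ₗ[𝕜] (Ω → 𝕜) :=
      { toFun := fun z => z.1 []
        map_add' := fun _ _ => rfl
        map_smul' := fun _ _ => rfl }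
    refine FiniteDimensional.of_injective f ?_
    intro z z' h
    apply Subtype.ext
    funext l
    rcases l with _ | ⟨X, l⟩
    · exact h
    · rw [mem_T_zero.1 z.2 _ (List.cons_ne_nil _ _), mem_T_zero.1 z'.2 _ (List.cons_ne_nil _ _)]
  | succ k ih =>
    intro B
    let f : T 𝕜 p r (k + 1) B →ₗ[𝕜] (∀ X : {X // X ∈ par p B}, T 𝕜 p r k X.1) :=
      LinearMap.pi fun X => LinearMap.codRestrict (T 𝕜 p r k X.1)
        ((shiftL 𝕜 Ω X.1) ∘ₗ (T 𝕜 p r (k + 1) B).subtype)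
        (fun z => (mem_T_succ.1 z.2).2.2.1 X.1 X.2)
    refine FiniteDimensional.of_injective f ?_
    intro z z' h
    apply Subtype.ext
    funext l
    rcases l with _ | ⟨X, l⟩
    · rw [(mem_T_succ.1 z.2).1, (mem_T_succ.1 z'.2).1]
    · by_cases hX : X ∈ par p B
      · have h1 := congrFun h ⟨X, hX⟩
        exact congrFun (congrArg Subtype.val h1) l
      · rw [T_not_par z.2 hX, T_not_par z'.2 hX]

open Classical in
/-- `D_H(B)` is the direct sum of the `T(X)`, `X ∈ par B`, `¬ X ≤ H`. -/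
noncomputable def Deq (H : Subgroup A) (k : ℕ) (B : Subgroup A) :
    D 𝕜 p r H k B ≃ₗ[𝕜]
      (∀ X : {X // X ∈ (par p B).filter (fun X => ¬ X ≤ H)}, T 𝕜 p r k X.1) :=
  LinearEquiv.ofBijective
    (LinearMap.pi fun X : {X // X ∈ (par p B).filter (fun X => ¬ X ≤ H)} =>
      LinearMap.codRestrict (T 𝕜 p r k X.1) ((shiftL 𝕜 Ω X.1) ∘ₗ (D 𝕜 p r H k B).subtype)
        (fun d => by
          have hX := Finset.mem_filter.1 X.2
          exact d.2.2.2 X.1 hX.1 hX.2)) (by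
    constructor
    · intro z z' h
      apply Subtype.ext
      funext l
      rcases l with _ | ⟨X, l⟩
      · rw [z.2.1, z'.2.1]
      · by_cases hX : X ∈ par p B ∧ ¬ X ≤ H
        · have h1 := congrFun h ⟨X, Finset.mem_filter.2 hX⟩
          exact congrFun (congrArg Subtype.val h1) l
        · have h2 : X ∉ par p B ∨ X ≤ H := by tauto
          rw [z.2.2.1 X h2, z'.2.2.1 X h2]
    · intro f
      refine ⟨⟨fun m => match m with
        | [] => 0
        | X :: l => if h : X ∈ par p B ∧ ¬ X ≤ H then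
            (f ⟨X, Finset.mem_filter.2 h⟩).1 l else 0, rfl, ?_, ?_⟩, ?_⟩
      · intro X hX l
        exact dif_neg (by tauto)
      · intro X hX hXH
        have : (fun l => (fun m : List (Subgroup A) => (match m with
          | [] => 0
          | X :: l => if h : X ∈ par p B ∧ ¬ X ≤ H then
            (f ⟨X, Finset.mem_filter.2 h⟩).1 l else 0 : Ω → 𝕜)) (X :: l)) =
              (f ⟨X, Finset.mem_filter.2 ⟨hX, hXH⟩⟩).1 := by
          funext l
          exact dif_pos ⟨hX, hXH⟩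
        rw [this]
        exact (f ⟨X, Finset.mem_filter.2 ⟨hX, hXH⟩⟩).2
      · funext X
        apply Subtype.ext
        funext l
        exact dif_pos (Finset.mem_filter.1 X.2))

instance finD (H : Subgroup A) (k : ℕ) (B : Subgroup A) :
    FiniteDimensional 𝕜 (D 𝕜 p r H k B) :=
  Module.Finite.equiv (Deq (𝕜 := 𝕜) (p := p) (r := r) H k B).symm

open Classical in
/-- the dimension of `D_H(B)` -/
theorem finrank_D (H : Subgroup A) (k : ℕ) (B : Subgroup A) :
    finrank 𝕜 (D 𝕜 p r H k B) =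
      ∑ X ∈ (par p B).filter (fun X => ¬ X ≤ H), finrank 𝕜 (T 𝕜 p r k X) := by
  rw [LinearEquiv.finrank_eq (Deq (𝕜 := 𝕜) (p := p) (r := r) H k B), Module.finrank_pi_fintype]
  exact Finset.sum_coe_sort ((par p B).filter (fun X => ¬ X ≤ H))
    (fun X => finrank 𝕜 (T 𝕜 p r k X))

open Classical in
/-- the restriction `T(B) → D_H(B)` on functions -/
noncomputable def rhoL (𝕜 : Type w) [Field 𝕜] (Ω : Type v) (H : Subgroup A) :
    (List (Subgroup A) → Ω → 𝕜) →ₗ[𝕜] (List (Subgroup A) → Ω → 𝕜) where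
  toFun z m := match m with
    | [] => 0
    | X :: l => if X ≤ H then 0 else z (X :: l)
  map_add' a b := by
    funext m
    rcases m with _ | ⟨X, l⟩
    · simp
    · by_cases h : X ≤ H <;> simp [h]
  map_smul' c a := by
    funext m
    rcases m with _ | ⟨X, l⟩
    · simp
    · by_cases h : X ≤ H <;> simp [h]

lemma rhoL_nil (H : Subgroup A) (z : List (Subgroup A) → Ω → 𝕜) : rhoL 𝕜 Ω H z [] = 0 := rfl

lemma rhoL_pos {H X : Subgroup A} (h : X ≤ H) (z : List (Subgroup A) → Ω → 𝕜)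
    (l : List (Subgroup A)) : rhoL 𝕜 Ω H z (X :: l) = 0 := if_pos h

lemma rhoL_neg {H X : Subgroup A} (h : ¬ X ≤ H) (z : List (Subgroup A) → Ω → 𝕜)
    (l : List (Subgroup A)) : rhoL 𝕜 Ω H z (X :: l) = z (X :: l) := if_neg h

lemma rhoL_mem (H : Subgroup A) {k : ℕ} {B : Subgroup A} {z : List (Subgroup A) → Ω → 𝕜}
    (hz : z ∈ T 𝕜 p r (k + 1) B) : rhoL 𝕜 Ω H z ∈ D 𝕜 p r H k B := by
  refine ⟨rfl, ?_, ?_⟩
  · intro X hX l
    by_cases h : X ≤ H
    · exact rhoL_pos h z l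
    · rw [rhoL_neg h]
      exact T_not_par hz (hX.resolve_right h) l
  · intro X hX hXH
    have : (fun l => rhoL 𝕜 Ω H z (X :: l)) = fun l => z (X :: l) := by
      funext l
      exact rhoL_neg hXH z l
    rw [this]
    exact (mem_T_succ.1 hz).2.2.1 X hX

/-- the restriction `T(B) → D_H(B)` -/
noncomputable def rho (𝕜 : Type w) [Field 𝕜] (p : ℕ) (r : Subgroup A → Setoid Ω)
    (H : Subgroup A) (k : ℕ) (B : Subgroup A) : T 𝕜 p r (k + 1) B →ₗ[𝕜] D 𝕜 p r H k B :=
  LinearMap.codRestrict _ ((rhoL 𝕜 Ω H) ∘ₗ (T 𝕜 p r (k + 1) B).subtype)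
    (fun z => rhoL_mem H z.2)

theorem rho_injective (hp : p.Prime) (hn : ∀ X : Subgroup A, X.Normal) {H : Subgroup A}
    (hH : Hyp p H) {k : ℕ} {B : Subgroup A} (hBH : B ≤ H)
    (hk : Nat.card A = p ^ (k + 1) * Nat.card B) :
    Function.Injective (rho 𝕜 p r H k B) := by
  rw [← LinearMap.ker_eq_bot, LinearMap.ker_eq_bot']
  intro z hz
  apply Subtype.ext
  refine inj (r := r) hp hn hH k B z.1 hBH hk z.2 ?_
  intro X _ hXH l
  rw [← rhoL_neg hXH z.1 l]
  exact congrFun (congrArg Subtype.val hz) (X :: l)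

theorem finrank_T_le (hp : p.Prime) (hn : ∀ X : Subgroup A, X.Normal) {H : Subgroup A}
    (hH : Hyp p H) {k : ℕ} {B : Subgroup A} (hBH : B ≤ H)
    (hk : Nat.card A = p ^ (k + 1) * Nat.card B) :
    finrank 𝕜 (T 𝕜 p r (k + 1) B) ≤ finrank 𝕜 (D 𝕜 p r H k B) :=
  LinearMap.finrank_le_finrank_of_injective (rho_injective hp hn hH hBH hk)

open Classical in
/-- the obstruction `y_Y` on functions -/
noncomputable def yL (𝕜 : Type w) [Field 𝕜] (p : ℕ) (Ω : Type v) (H B Y : Subgroup A) :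
    (List (Subgroup A) → Ω → 𝕜) →ₗ[𝕜] (List (Subgroup A) → Ω → 𝕜) where
  toFun d m := match m with
    | [] => 0
    | Z :: l => if Z ∈ par p Y ∧ ¬ Z ≤ H then - ∑ X ∈ par p B, d (X :: Z :: l) else 0
  map_add' a b := by
    funext m
    rcases m with _ | ⟨Z, l⟩
    · simp
    · by_cases h : Z ∈ par p Y ∧ ¬ Z ≤ H
      · simp only [if_pos h, Pi.add_apply, Finset.sum_add_distrib]
        rw [neg_add]
      · simp [h]
  map_smul' c a := by
    funext m
    rcases m with _ | ⟨Z, l⟩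
    · simp
    · by_cases h : Z ∈ par p Y ∧ ¬ Z ≤ H
      · simp only [if_pos h, Pi.smul_apply, RingHom.id_apply, ← Finset.smul_sum, smul_neg]
      · simp [h]

lemma yL_pos {H B Y Z : Subgroup A} (h1 : Z ∈ par p Y) (h2 : ¬ Z ≤ H)
    (d : List (Subgroup A) → Ω → 𝕜) (l : List (Subgroup A)) :
    yL 𝕜 p Ω H B Y d (Z :: l) = - ∑ X ∈ par p B, d (X :: Z :: l) := if_pos ⟨h1, h2⟩

lemma yL_neg {H B Y Z : Subgroup A} (h : Z ∉ par p Y ∨ Z ≤ H)
    (d : List (Subgroup A) → Ω → 𝕜) (l : List (Subgroup A)) :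
    yL 𝕜 p Ω H B Y d (Z :: l) = 0 := by
  refine if_neg ?_
  tauto

lemma yL_mem {H B Y : Subgroup A} {k : ℕ} {d : List (Subgroup A) → Ω → 𝕜}
    (hd : d ∈ D 𝕜 p r H (k + 1) B) : yL 𝕜 p Ω H B Y d ∈ D 𝕜 p r H k Y := by
  refine ⟨rfl, fun X hX l => yL_neg hX d l, ?_⟩
  intro Z hZ hZH
  have : (fun l => yL 𝕜 p Ω H B Y d (Z :: l)) = - ∑ X ∈ par p B, fun l => d (X :: Z :: l) := by
    funext l
    rw [yL_pos hZ hZH]
    simp [Finset.sum_apply]
  rw [this]
  refine Submodule.neg_mem _ (Submodule.sum_mem _ fun X hX => ?_)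
  by_cases hXH : X ≤ H
  · have : (fun l => d (X :: Z :: l)) = 0 := by
      funext l
      exact hd.2.1 X (Or.inr hXH) _
    rw [this]
    exact Submodule.zero_mem _
  · have hdX := hd.2.2 X hX hXH
    by_cases hZX : Z ∈ par p X
    · exact (mem_T_succ.1 hdX).2.2.1 Z hZX
    · have : (fun l => d (X :: Z :: l)) = 0 := by
        funext l
        exact T_not_par hdX hZX l
      rw [this]
      exact Submodule.zero_mem _

/-- the obstruction `y_Y` -/
noncomputable def yy (𝕜 : Type w) [Field 𝕜] (p : ℕ) (r : Subgroup A → Setoid Ω)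
    (H : Subgroup A) (k : ℕ) (B Y : Subgroup A) : D 𝕜 p r H (k + 1) B →ₗ[𝕜] D 𝕜 p r H k Y :=
  LinearMap.codRestrict _ ((yL 𝕜 p Ω H B Y) ∘ₗ (D 𝕜 p r H (k + 1) B).subtype)
    (fun d => yL_mem d.2)

open Classical in
/-- The inequality (2). -/
theorem ineq2 (hp : p.Prime) (hn : ∀ X : Subgroup A, X.Normal) {H H1 : Subgroup A}
    (hH : Hyp p H) (hH1 : Hyp p H1) (hne : H ≠ H1) {k : ℕ} {B : Subgroup A} (hBH : B ≤ H)
    (hBH1 : B ≤ H1) (hk : Nat.card A = p ^ (k + 2) * Nat.card B) :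
    finrank 𝕜 (D 𝕜 p r H (k + 1) B) ≤ finrank 𝕜 (T 𝕜 p r (k + 2) B) +
      ∑ Y ∈ (par p B).filter (fun Y => Y ≤ H ∧ ¬ Y ≤ H1),
        (finrank 𝕜 (D 𝕜 p r H k Y) - finrank 𝕜 (T 𝕜 p r (k + 1) Y)) := by
  set S := (par p B).filter (fun Y => Y ≤ H ∧ ¬ Y ≤ H1) with hS
  have h1 := dim_bound (K := 𝕜) (V := D 𝕜 p r H (k + 1) B) (fun Y : S => D 𝕜 p r H k Y.1)
    (fun Y => LinearMap.range (rho 𝕜 p r H k Y.1)) (fun Y => yy 𝕜 p r H k B Y.1)
    (LinearMap.range (rho 𝕜 p r H (k + 1) B)) (by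
      intro d hd
      obtain ⟨z, hz, hz'⟩ := lift_of hp hn hH hH1 hne k B d.1 hBH hBH1 hk d.2 (by
        intro Y hY hYH hYH1
        have hYS : Y ∈ S := Finset.mem_filter.2 ⟨hY, hYH, hYH1⟩
        obtain ⟨z, hz⟩ := hd ⟨Y, hYS⟩
        refine ⟨z.1, z.2, fun Z hZ hZH l => ?_⟩
        rw [← yL_pos hZ hZH d.1 l, ← rhoL_neg hZH z.1 l]
        exact congrFun (congrArg Subtype.val hz) (Z :: l))
      refine ⟨⟨z, hz⟩, ?_⟩
      apply Subtype.ext
      funext m
      rcases m with _ | ⟨X, l⟩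
      · exact d.2.1.symm
      · show rhoL 𝕜 Ω H z (X :: l) = d.1 (X :: l)
        by_cases hX : X ∈ par p B ∧ ¬ X ≤ H
        · rw [rhoL_neg hX.2]
          exact hz' X hX.1 hX.2 l
        · rw [d.2.2.1 X (by tauto)]
          by_cases hXH : X ≤ H
          · exact rhoL_pos hXH z l
          · rw [rhoL_neg hXH]
            exact T_not_par hz (fun h => hX ⟨h, hXH⟩) l)
  refine h1.trans (Nat.add_le_add (LinearMap.finrank_range_le _) ?_)
  rw [← Finset.sum_coe_sort S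
    (fun Y => finrank 𝕜 (D 𝕜 p r H k Y) - finrank 𝕜 (T 𝕜 p r (k + 1) Y))]
  refine Finset.sum_le_sum fun Y _ => ?_
  have hY := Finset.mem_filter.1 Y.2
  have hkY : Nat.card A = p ^ (k + 1) * Nat.card Y.1 := by
    rw [(mem_par.1 hY.1).2, hk]; ring
  have h5 := LinearMap.finrank_range_of_inj
    (rho_injective (𝕜 := 𝕜) (r := r) hp hn hH hY.2.1 hkY)
  rw [h5]

end

end Vale.Agent.P240.LT
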