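import Vale.Agent.P240.MathlibUsed

/-!
LEMMA T (P240, crux 11): definitions. `A` is an elementary abelian `p`-group (all subgroups normal),
`Ω = N / C_N(A)`, and `r X` is the relation `x⁻¹ y ∈ C_N(X)` on `Ω` (`X ≤ A`).
-/

namespace Vale.Agent.P240.LT

universe u v w

section
variable {A : Type u} [Group A] [Finite A] {Ω : Type v} [Fintype Ω] {𝕜 : Type w} [Field 𝕜]

/-- `H` has index `p` in `A`. -/
def Hyp (p : ℕ) (H : Subgroup A) : Prop := Nat.card A = p * Nat.card H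

/-- The subgroups `X ≥ B` with `|X| = p |B|`. -/
noncomputable def par (p : ℕ) (B : Subgroup A) : Finset (Subgroup A) :=
  (Set.toFinite {X : Subgroup A | B ≤ X ∧ Nat.card X = p * Nat.card B}).toFinset

lemma mem_par {p : ℕ} {B X : Subgroup A} : X ∈ par p B ↔ B ≤ X ∧ Nat.card X = p * Nat.card B := by
  simp [par]

open Classical in
/-- The sum over the classes of `r`. -/
noncomputable def cs (r : Setoid Ω) : (Ω → 𝕜) →ₗ[𝕜] (Ω → 𝕜) where
  toFun f ω := ∑ x, if r ω x then f x else 0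
  map_add' f g := by
    funext ω
    simp only [Pi.add_apply]
    rw [← Finset.sum_add_distrib]
    exact Finset.sum_congr rfl fun x _ => by split <;> simp
  map_smul' c f := by
    funext ω
    simp only [Pi.smul_apply, smul_eq_mul, RingHom.id_apply]
    rw [Finset.mul_sum]
    exact Finset.sum_congr rfl fun x _ => by split <;> simp

open Classical in
lemma cs_apply (r : Setoid Ω) (f : Ω → 𝕜) (ω : Ω) :
    cs r f ω = ∑ x, if r ω x then f x else 0 := rfl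

/-- The spaces `T(B)`; `k` is the rank of `A / B`. Elements are functions on lists
`[X₁, ..., X_k = A]`, `B < X₁ < ... < X_k`, `|X_{i+1}| = p |X_i|`. -/
noncomputable def T (𝕜 : Type w) [Field 𝕜] (p : ℕ) (r : Subgroup A → Setoid Ω) :
    ℕ → Subgroup A → Submodule 𝕜 (List (Subgroup A) → Ω → 𝕜)
  | 0, _ =>
    { carrier := {z | ∀ l, l ≠ [] → z l = 0}
      add_mem' := fun {a b} ha hb l hl => by simp [ha l hl, hb l hl]
      zero_mem' := fun l hl => rfl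
      smul_mem' := fun c a ha l hl => by simp [ha l hl] }
  | k + 1, B =>
    { carrier := {z | z [] = 0 ∧ (∀ X, X ∉ par p B → ∀ l, z (X :: l) = 0) ∧
        (∀ X ∈ par p B, (fun l => z (X :: l)) ∈ T 𝕜 p r k X) ∧
        (∀ Z l, ∑ X ∈ par p B, z (X :: Z :: l) = 0) ∧
        (k = 0 → ∀ X, cs (r B) (z [X]) = 0)}
      add_mem' := fun {a b} ha hb => by
        refine ⟨by simp [ha.1, hb.1], fun X hX l => by simp [ha.2.1 X hX l, hb.2.1 X hX l],
          fun X hX => ?_, fun Z l => ?_, fun hk X => ?_⟩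
        · exact (T 𝕜 p r k X).add_mem (ha.2.2.1 X hX) (hb.2.2.1 X hX)
        · simp only [Pi.add_apply]
          rw [Finset.sum_add_distrib, ha.2.2.2.1 Z l, hb.2.2.2.1 Z l, add_zero]
        · rw [Pi.add_apply, map_add, ha.2.2.2.2 hk X, hb.2.2.2.2 hk X, add_zero]
      zero_mem' := ⟨rfl, fun _ _ _ => rfl, fun X _ => (T 𝕜 p r k X).zero_mem,
        fun _ _ => by simp, fun _ _ => by simp⟩
      smul_mem' := fun c a ha => by
        refine ⟨by simp [ha.1], fun X hX l => by simp [ha.2.1 X hX l],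
          fun X hX => ?_, fun Z l => ?_, fun hk X => ?_⟩
        · exact (T 𝕜 p r k X).smul_mem c (ha.2.2.1 X hX)
        · simp only [Pi.smul_apply]
          rw [← Finset.smul_sum, ha.2.2.2.1 Z l, smul_zero]
        · rw [Pi.smul_apply, map_smul, ha.2.2.2.2 hk X, smul_zero] }

lemma mem_T_zero {p : ℕ} {r : Subgroup A → Setoid Ω} {B : Subgroup A}
    {z : List (Subgroup A) → Ω → 𝕜} : z ∈ T 𝕜 p r 0 B ↔ ∀ l, l ≠ [] → z l = 0 := by
  rw [T]; rfl

lemma mem_T_succ {p : ℕ} {r : Subgroup A → Setoid Ω} {k : ℕ} {B : Subgroup A}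
    {z : List (Subgroup A) → Ω → 𝕜} : z ∈ T 𝕜 p r (k + 1) B ↔
      z [] = 0 ∧ (∀ X, X ∉ par p B → ∀ l, z (X :: l) = 0) ∧
        (∀ X ∈ par p B, (fun l => z (X :: l)) ∈ T 𝕜 p r k X) ∧
        (∀ Z l, ∑ X ∈ par p B, z (X :: Z :: l) = 0) ∧
        (k = 0 → ∀ X, cs (r B) (z [X]) = 0) := by
  rw [T]; rfl

/-- The spaces `D_H(B)`; `k + 1` is the rank of `A / B`. -/
noncomputable def D (𝕜 : Type w) [Field 𝕜] (p : ℕ) (r : Subgroup A → Setoid Ω) (H : Subgroup A)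
    (k : ℕ) (B : Subgroup A) : Submodule 𝕜 (List (Subgroup A) → Ω → 𝕜) where
  carrier := {d | d [] = 0 ∧ (∀ X, (X ∉ par p B ∨ X ≤ H) → ∀ l, d (X :: l) = 0) ∧
    ∀ X ∈ par p B, ¬ X ≤ H → (fun l => d (X :: l)) ∈ T 𝕜 p r k X}
  add_mem' := fun {a b} ha hb => by
    refine ⟨by simp [ha.1, hb.1], fun X hX l => by simp [ha.2.1 X hX l, hb.2.1 X hX l],
      fun X hX hXH => ?_⟩
    exact (T 𝕜 p r k X).add_mem (ha.2.2 X hX hXH) (hb.2.2 X hX hXH)
  zero_mem' := ⟨rfl, fun _ _ _ => rfl, fun X _ _ => (T 𝕜 p r k X).zero_mem⟩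
  smul_mem' := fun c a ha => by
    refine ⟨by simp [ha.1], fun X hX l => by simp [ha.2.1 X hX l], fun X hX hXH => ?_⟩
    exact (T 𝕜 p r k X).smul_mem c (ha.2.2 X hX hXH)

lemma mem_D {p : ℕ} {r : Subgroup A → Setoid Ω} {H : Subgroup A} {k : ℕ} {B : Subgroup A}
    {d : List (Subgroup A) → Ω → 𝕜} : d ∈ D 𝕜 p r H k B ↔
      d [] = 0 ∧ (∀ X, (X ∉ par p B ∨ X ≤ H) → ∀ l, d (X :: l) = 0) ∧
        ∀ X ∈ par p B, ¬ X ≤ H → (fun l => d (X :: l)) ∈ T 𝕜 p r k X := Iff.rfl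

end

/-- The system of relations `r X : x⁻¹ y ∈ C_N(X)` on `Ω = N / C_N(A)`. -/
structure Sys (p : ℕ) (A : Type u) [Group A] (Ω : Type v) where
  r : Subgroup A → Setoid Ω
  top : ∀ x y, r ⊤ x y → x = y
  anti : ∀ X Y : Subgroup A, X ≤ Y → ∀ x y, r Y x y → r X x y
  sup : ∀ (X Y : Subgroup A) (x y), r X x y → r Y x y → r (X ⊔ Y) x y
  dich : ∀ H, Hyp p H → (∀ x y, r H x y → x = y) ∨ ∀ x, ∃ y, y ≠ x ∧ r H x y
  W : ∀ H H', Hyp p H → Hyp p H' → H ≠ H' →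
    (∀ H'', Hyp p H'' → H ⊓ H' ≤ H'' → H'' ≠ H → H'' ≠ H' → ∀ x y, r H'' x y → x = y) →
    ∀ x y z, r H x y → r H' y z → ∃ y', r H' x y' ∧ r H y' z
  gen : ∀ K : Subgroup A, K ≠ ⊥ → ∃ H, Hyp p H ∧ ¬ K ≤ H ∧ ∃ x y, r H x y ∧ x ≠ y

end Vale.Agent.P240.LT
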